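import Vale.Agent.Lib.P100.Planar
import Vale.Agent.Lib.P100.Singular

/-!
# P100: the Hénon–Lane–Emden system in the plane and for weights `≤ -2`

In dimension two, and in every dimension `n ≥ 2` as soon as one of the weight exponents is `≤ -2`,
the system has no positive entire solution at all, whatever `p, q > 0` are.
-/

namespace Vale.Agent.Results.P100.DegenerateRange

open Laplacian Vale.Agent.Lib.P100

/-- `(u, v)` is a positive entire solution of `-Δu = |x|^A v^p`, `-Δv = |x|^B u^q` on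
`ℝⁿ ∖ {0}`: both functions are continuous on `ℝⁿ`, of class `C²` off the origin, positive
everywhere, and both equations hold at every `x ≠ 0`. -/
structure IsPositiveEntireSolution (n : ℕ) (p q A B : ℝ)
    (u v : EuclideanSpace ℝ (Fin n) → ℝ) : Prop where
  cont_u : Continuous u
  cont_v : Continuous v
  smooth_u : ContDiffOn ℝ 2 u {0}ᶜ
  smooth_v : ContDiffOn ℝ 2 v {0}ᶜ
  pos_u : ∀ x, 0 < u x
  pos_v : ∀ x, 0 < v x
  eq_u : ∀ x, x ≠ 0 → -(Δ u x) = ‖x‖ ^ A * v x ^ p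
  eq_v : ∀ x, x ≠ 0 → -(Δ v x) = ‖x‖ ^ B * u x ^ q

/-- One half of the system already gives a contradiction when its weight exponent is `≤ -2`. -/
theorem half_singular {n : ℕ} (hn : 3 ≤ n) {p A : ℝ} (hp : 0 < p) (hA : A ≤ -2)
    {u v : EuclideanSpace ℝ (Fin n) → ℝ} (cont_u : Continuous u) (cont_v : Continuous v)
    (smooth_u : ContDiffOn ℝ 2 u {0}ᶜ) (pos_u : ∀ x, 0 < u x) (pos_v : ∀ x, 0 < v x)
    (eq_u : ∀ x, x ≠ 0 → -(Δ u x) = ‖x‖ ^ A * v x ^ p) : False := by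
  have hK : IsCompact (Metric.closedBall (0 : EuclideanSpace ℝ (Fin n)) 1) :=
    isCompact_closedBall 0 1
  have hKne : (Metric.closedBall (0 : EuclideanSpace ℝ (Fin n)) 1).Nonempty :=
    ⟨0, by simp⟩
  obtain ⟨y0, _, hy0⟩ := hK.exists_isMinOn hKne cont_v.continuousOn
  obtain ⟨y1, _, hy1⟩ := hK.exists_isMaxOn hKne cont_u.continuousOn
  have hv0 : 0 < v y0 := pos_v y0
  refine no_bounded_inverse_square (EuclideanSpace.basisFun (Fin n) ℝ) (by simpa using hn)
    smooth_u (fun x => (pos_u x).le) (M := u y1) (c := v y0 ^ p) ?_ (Real.rpow_pos_of_pos hv0 p) ?_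
  · intro x hx
    exact hy1 (by simpa using hx)
  · intro x hx0 hx1
    have hx : x ≠ 0 := norm_pos_iff.mp hx0
    have h1 := eq_u x hx
    have h2 : v y0 ^ p ≤ v x ^ p :=
      Real.rpow_le_rpow hv0.le (hy0 (by simpa using hx1.le)) hp.le
    have h3 : ‖x‖ ^ (-2 : ℝ) ≤ ‖x‖ ^ A := Real.rpow_le_rpow_of_exponent_ge hx0 hx1.le hA
    have h4 : ‖x‖ ^ (-2 : ℝ) = (‖x‖ ^ 2)⁻¹ := by
      rw [Real.rpow_neg hx0.le]
      norm_num
    have h5 : (‖x‖ ^ 2)⁻¹ * v y0 ^ p ≤ ‖x‖ ^ A * v x ^ p := by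
      rw [← h4]
      exact mul_le_mul h3 h2 (Real.rpow_pos_of_pos hv0 p).le (Real.rpow_pos_of_pos hx0 A).le
    have h6 : v y0 ^ p / ‖x‖ ^ 2 = (‖x‖ ^ 2)⁻¹ * v y0 ^ p := by
      rw [div_eq_mul_inv, mul_comm]
    rw [h6]
    linarith

/-- For `n = 2`, and for any `n ≥ 2` when `A ≤ -2` or `B ≤ -2`, the Hénon–Lane–Emden system has no
positive entire solution, for all `p, q > 0`. -/
theorem result (n : ℕ) (hn : 2 ≤ n) (p q A B : ℝ) (hp : 0 < p) (hq : 0 < q)
    (h : n = 2 ∨ A ≤ -2 ∨ B ≤ -2) :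
    ¬ ∃ u v : EuclideanSpace ℝ (Fin n) → ℝ, IsPositiveEntireSolution n p q A B u v := by
  rintro ⟨u, v, S⟩
  rcases hn.eq_or_lt with h2 | h3
  · refine no_positive_superharmonic_planar (EuclideanSpace.basisFun (Fin n) ℝ)
      (by simpa using h2.symm) S.smooth_u S.pos_u ?_
    intro x hx
    have h1 := S.eq_u x hx
    have h4 : 0 < ‖x‖ ^ A * v x ^ p :=
      mul_pos (Real.rpow_pos_of_pos (norm_pos_iff.mpr hx) A) (Real.rpow_pos_of_pos (S.pos_v x) p)
    linarith
  · rcases h with h | h | h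
    · omega
    · exact half_singular h3 hp h S.cont_u S.cont_v S.smooth_u S.pos_u S.pos_v S.eq_u
    · exact half_singular h3 hq h S.cont_v S.cont_u S.smooth_v S.pos_v S.pos_u S.eq_v

end Vale.Agent.Results.P100.DegenerateRange
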